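import Vale.Agent.P096.Main

open ContinuousLinearMap

universe u

namespace Vale.Agent.P096

section

variable {H : ℕ → Type u} [∀ n, NormedAddCommGroup (H n)] [∀ n, InnerProductSpace ℂ (H n)]
  [∀ n, CompleteSpace (H n)]

omit [∀ n, CompleteSpace (H n)] in
theorem lsingle_bound (n : ℕ) (x : H n) : ‖lp.lsingle (𝕜 := ℂ) (E := H) 2 n x‖ ≤ 1 * ‖x‖ := by
  rw [one_mul]
  exact (lp.norm_single (by norm_num) n x).le

/-- The inclusion of the summand `n` in the Hilbert direct sum. -/
noncomputable def incl (n : ℕ) : H n →L[ℂ] lp H 2 :=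
  LinearMap.mkContinuous (lp.lsingle 2 n) 1 (lsingle_bound n)

omit [∀ n, CompleteSpace (H n)] in
theorem incl_apply (n : ℕ) (x : H n) : incl n x = lp.single 2 n x := rfl

theorem isSum_incl : IsSum (incl (H := H)) where
  iso := by
    intro n
    ext x
    refine ext_inner_left ℂ fun y => ?_
    rw [comp_apply, adjoint_inner_right, incl_apply, incl_apply, lp.inner_single_left,
      lp.single_apply_self]
    rfl
  orth := by
    intro n m hnm
    ext x
    refine ext_inner_left ℂ fun y => ?_
    rw [comp_apply, adjoint_inner_right, incl_apply, incl_apply, lp.inner_single_left,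
      lp.single_apply_ne _ _ _ hnm]
    rfl

/-- The direct sum of a sequence of von Neumann algebras, acting on the Hilbert direct sum. -/
noncomputable def directSum (M : ∀ n, VonNeumannAlgebra (H n)) : VonNeumannAlgebra (lp H 2) :=
  dsum incl isSum_incl M

end

/-- A class of von Neumann algebras acting on Hilbert spaces. -/
abbrev Cls : Type (u + 1) := ∀ (H : Type u) [NormedAddCommGroup H] [InnerProductSpace ℂ H]
  [CompleteSpace H], VonNeumannAlgebra H → Prop

/-- The strong form, for the algebras `M` of the class `P`, with `δ` depending on `ε` only. -/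
def UniformOn (P : Cls.{u}) : Prop :=
  ∀ ε : ℝ, 0 < ε → ∃ δ : ℝ, 0 < δ ∧
    ∀ (H : Type u) [NormedAddCommGroup H] [InnerProductSpace ℂ H] [CompleteSpace H]
      (M N : VonNeumannAlgebra H), P H M → kk M N < δ → NearConj ε M N

/-- The strong form, for the algebras `M` of the class `P`, with `δ` depending on `ε` and `M`. -/
def LocalOn (P : Cls.{u}) : Prop :=
  ∀ ε : ℝ, 0 < ε →
    ∀ (H : Type u) [NormedAddCommGroup H] [InnerProductSpace ℂ H] [CompleteSpace H]
      (M : VonNeumannAlgebra H), P H M → ∃ δ : ℝ, 0 < δ ∧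
        ∀ N : VonNeumannAlgebra H, kk M N < δ → NearConj ε M N

/-- The class `P` is closed under direct sums of sequences. -/
def SumClosed (P : Cls.{u}) : Prop :=
  ∀ (H : ℕ → Type u) [∀ n, NormedAddCommGroup (H n)] [∀ n, InnerProductSpace ℂ (H n)]
    [∀ n, CompleteSpace (H n)] (M : ∀ n, VonNeumannAlgebra (H n)),
    (∀ n, P (H n) (M n)) → P (lp H 2) (directSum M)

theorem nearConj_mono {H : Type*} [NormedAddCommGroup H] [InnerProductSpace ℂ H] [CompleteSpace H]
    {ε ε' : ℝ} (h : ε ≤ ε') {M N : VonNeumannAlgebra H} (hc : NearConj ε M N) :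
    NearConj ε' M N := by
  obtain ⟨u, hu, h1, h2⟩ := hc
  exact ⟨u, hu, h1, h2.trans_le h⟩

theorem uniform_iff_local (P : Cls.{u}) (hP : SumClosed P) : UniformOn P ↔ LocalOn P := by
  constructor
  · intro h ε hε H _ _ _ M hM
    obtain ⟨δ, hδ, hd⟩ := h ε hε
    exact ⟨δ, hδ, fun N hN => hd H M N hM hN⟩
  · intro h
    by_contra hU
    unfold UniformOn at hU
    push Not at hU
    obtain ⟨ε, hε, hbad⟩ := hU
    choose H i1 i2 i3 M N hM hk hnc using fun n : ℕ => hbad (1 / ((n : ℝ) + 1)) (by positivity)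
    obtain ⟨δ, hδ, hd⟩ := h (min ε (1 / 4)) (lt_min hε (by norm_num)) (lp H 2) (directSum M)
      (hP H M hM)
    obtain ⟨m, hm⟩ := exists_nat_one_div_lt (show (0 : ℝ) < δ from hδ)
    have h1 : kk (directSum M) (directSum (Function.update M m (N m))) < δ :=
      (kk_dsum_le isSum_incl (hk m)).trans_lt hm
    have h2 := near_of_dsum isSum_incl (min_le_right _ _) (hd _ h1)
    exact hnc m (nearConj_mono (min_le_left _ _) h2)

end Vale.Agent.P096
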