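import Vale.Agent.P096.Sum

open ContinuousLinearMap

namespace Vale.Agent.P096

/-- The closed unit ball of a von Neumann algebra. -/
def ball {H : Type*} [NormedAddCommGroup H] [InnerProductSpace ℂ H] [CompleteSpace H]
    (M : VonNeumannAlgebra H) : Set (H →L[ℂ] H) := {x | x ∈ M ∧ ‖x‖ ≤ 1}

/-- The Kadison-Kastler distance: the Hausdorff distance of the unit balls. -/
noncomputable def kk {H : Type*} [NormedAddCommGroup H] [InnerProductSpace ℂ H] [CompleteSpace H]
    (M N : VonNeumannAlgebra H) : ℝ := Metric.hausdorffDist (ball M) (ball N)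

/-- Some unitary `u` with `‖u - 1‖ < ε` satisfies `u M u* = N`. -/
def NearConj {H : Type*} [NormedAddCommGroup H] [InnerProductSpace ℂ H] [CompleteSpace H]
    (ε : ℝ) (M N : VonNeumannAlgebra H) : Prop :=
  ∃ u ∈ unitary (H →L[ℂ] H), (fun x => u * x * star u) '' (M : Set (H →L[ℂ] H)) = N ∧ ‖u - 1‖ < ε

section

variable {H : Type*} [NormedAddCommGroup H] [InnerProductSpace ℂ H] [CompleteSpace H]

theorem ball_bdd (M : VonNeumannAlgebra H) : Bornology.IsBounded (ball M) :=
  (Metric.isBounded_closedBall (x := (0 : H →L[ℂ] H)) (r := 1)).subset fun x hx => by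
    simpa using hx.2

theorem ball_ne (M : VonNeumannAlgebra H) : (ball M).Nonempty :=
  ⟨0, zero_mem M, by simp⟩

theorem exists_near {M N : VonNeumannAlgebra H} {r : ℝ} (h : kk M N < r) {x : H →L[ℂ] H}
    (hx : x ∈ ball M) : ∃ y ∈ ball N, dist x y < r :=
  Metric.exists_dist_lt_of_hausdorffDist_lt hx h
    (Metric.hausdorffEDist_ne_top_of_nonempty_of_bounded (ball_ne M) (ball_ne N) (ball_bdd M)
      (ball_bdd N))

theorem exists_near' {M N : VonNeumannAlgebra H} {r : ℝ} (h : kk M N < r) {x : H →L[ℂ] H}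
    (hx : x ∈ ball N) : ∃ y ∈ ball M, dist x y < r := by
  refine exists_near (M := N) (N := M) ?_ hx
  rw [kk, Metric.hausdorffDist_comm]
  exact h

end

variable {K : Type*} [NormedAddCommGroup K] [InnerProductSpace ℂ K] [CompleteSpace K]
variable {H : ℕ → Type*} [∀ n, NormedAddCommGroup (H n)] [∀ n, InnerProductSpace ℂ (H n)]
  [∀ n, CompleteSpace (H n)]
variable {ι : ∀ n, H n →L[ℂ] K} (hι : IsSum ι)

include hι

theorem norm_replace {T : K →L[ℂ] K} {m : ℕ} (hT : T * prj ι m = prj ι m * T) (h1 : ‖T‖ ≤ 1)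
    {S : H m →L[ℂ] H m} (hS : ‖S‖ ≤ 1) : ‖T - emb ι m (cmp ι m T) + emb ι m S‖ ≤ 1 := by
  refine opNorm_le_bound _ zero_le_one fun x => ?_
  rw [one_mul]
  set y : K := x - ι m (adjoint (ι m) x) with hy
  have e1 : (T - emb ι m (cmp ι m T) + emb ι m S) x = T y + ι m (S (adjoint (ι m) x)) := by
    have : emb ι m (cmp ι m T) x = T (ι m (adjoint (ι m) x)) := (comm_ι hι hT _).symm
    simp only [add_apply, sub_apply, this, hy, map_sub]
    rfl
  have hy0 : adjoint (ι m) y = 0 := by rw [hy, map_sub, adj_ι hι, sub_self]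
  have hTy : adjoint (ι m) (T y) = 0 := by rw [comm_adj hι hT, hy0, map_zero]
  have o1 : inner ℂ (T y) (ι m (S (adjoint (ι m) x))) = (0 : ℂ) := by
    rw [← adjoint_inner_left, hTy, inner_zero_left]
  have o2 : inner ℂ y (ι m (adjoint (ι m) x)) = (0 : ℂ) := by
    rw [← adjoint_inner_left, hy0, inner_zero_left]
  have n1 := norm_add_sq_eq_norm_sq_add_norm_sq_of_inner_eq_zero (𝕜 := ℂ) _ _ o1
  have n2 := norm_add_sq_eq_norm_sq_add_norm_sq_of_inner_eq_zero (𝕜 := ℂ) _ _ o2
  have hx : y + ι m (adjoint (ι m) x) = x := by rw [hy]; abel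
  rw [hx] at n2
  rw [norm_ι hι] at n1 n2
  have b1 : ‖T y‖ ≤ ‖y‖ := (le_opNorm _ _).trans (by nlinarith [norm_nonneg y])
  have b2 : ‖S (adjoint (ι m) x)‖ ≤ ‖adjoint (ι m) x‖ :=
    (le_opNorm _ _).trans (by nlinarith [norm_nonneg (adjoint (ι m) x)])
  rw [e1]
  refine (sq_le_sq₀ (norm_nonneg _) (norm_nonneg _)).1 ?_
  nlinarith [norm_nonneg (T y), norm_nonneg (S (adjoint (ι m) x)), norm_nonneg y,
    norm_nonneg (adjoint (ι m) x)]

theorem one_sided {M : ∀ n, VonNeumannAlgebra (H n)} {m : ℕ} {N : VonNeumannAlgebra (H m)} {r : ℝ}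
    (h : ∀ x ∈ ball (M m), ∃ y ∈ ball N, dist x y ≤ r) {T : K →L[ℂ] K}
    (hT : T ∈ ball (dsum ι hι M)) :
    ∃ T' ∈ ball (dsum ι hι (Function.update M m N)), dist T T' ≤ r := by
  obtain ⟨hTM, hT1⟩ := hT
  rw [mem_dsum] at hTM
  obtain ⟨S, ⟨hSN, hS1⟩, hd⟩ := h (cmp ι m T) ⟨(hTM m).2, (norm_cmp_le hι m T).trans hT1⟩
  refine ⟨T - emb ι m (cmp ι m T) + emb ι m S, ⟨?_, norm_replace hι (hTM m).1 hT1 hS1⟩, ?_⟩
  · rw [mem_dsum]
    intro n
    refine ⟨?_, ?_⟩
    · rw [add_mul, sub_mul, mul_add, mul_sub, (hTM n).1, emb_comm hι, emb_comm hι]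
    · rw [cmp_add, cmp_sub]
      by_cases hnm : n = m
      · subst hnm
        rw [cmp_emb hι, cmp_emb hι, sub_self, zero_add, Function.update_self]
        exact hSN
      · rw [cmp_emb_ne hι hnm, cmp_emb_ne hι hnm, sub_zero, add_zero,
          Function.update_of_ne hnm]
        exact (hTM n).2
  · rw [dist_eq_norm]
    have : T - (T - emb ι m (cmp ι m T) + emb ι m S) = emb ι m (cmp ι m T - S) := by
      ext x
      simp [emb]
      abel
    rw [this]
    refine (norm_emb_le hι m _).trans ?_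
    rwa [← dist_eq_norm]

theorem kk_dsum_le {M : ∀ n, VonNeumannAlgebra (H n)} {m : ℕ} {N : VonNeumannAlgebra (H m)} {r : ℝ}
    (h : kk (M m) N < r) : kk (dsum ι hι M) (dsum ι hι (Function.update M m N)) ≤ r := by
  have hr : 0 ≤ r := Metric.hausdorffDist_nonneg.trans h.le
  refine Metric.hausdorffDist_le_of_mem_dist hr ?_ ?_
  · intro T hT
    refine one_sided hι (fun x hx => ?_) hT
    obtain ⟨y, hy, hd⟩ := exists_near h hx
    exact ⟨y, hy, hd.le⟩
  · intro T hT
    have := one_sided hι (M := Function.update M m N) (N := M m) (r := r) (m := m)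
      (fun x hx => ?_) hT
    · rwa [Function.update_idem, Function.update_eq_self] at this
    · rw [Function.update_self] at hx
      obtain ⟨y, hy, hd⟩ := exists_near' h hx
      exact ⟨y, hy, hd.le⟩

omit hι in
/-- Commuting idempotents at distance less than one are equal. -/
theorem idem_eq {P Q : K →L[ℂ] K} (hP : P * P = P) (hQ : Q * Q = Q) (hc : Q * P = P * Q)
    (h : ‖Q - P‖ < 1) : Q = P := by
  have h3 : (Q - P) * (Q - P) * (Q - P) = Q - P := by
    have e1 : (Q - P) * (Q - P) = Q + P - 2 • (P * Q) := by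
      rw [sub_mul, mul_sub, mul_sub, hP, hQ, hc]
      abel
    have e2 : (P * Q) * Q = P * Q := by rw [mul_assoc, hQ]
    have e3 : (P * Q) * P = P * Q := by rw [mul_assoc, hc, ← mul_assoc, hP]
    rw [e1, sub_mul, add_mul, mul_sub, mul_sub, smul_mul_assoc, mul_sub, e2, e3, hP, hQ, hc]
    simp
  have hle : ‖Q - P‖ ≤ ‖Q - P‖ * ‖Q - P‖ * ‖Q - P‖ := by
    calc ‖Q - P‖ = ‖(Q - P) * (Q - P) * (Q - P)‖ := by rw [h3]
      _ ≤ ‖(Q - P) * (Q - P)‖ * ‖Q - P‖ := norm_mul_le _ _
      _ ≤ ‖Q - P‖ * ‖Q - P‖ * ‖Q - P‖ := by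
        gcongr
        exact norm_mul_le _ _
  have h0 : ‖Q - P‖ = 0 := by
    by_contra hne
    have hpos : 0 < ‖Q - P‖ := lt_of_le_of_ne (norm_nonneg _) (Ne.symm hne)
    nlinarith [mul_pos hpos hpos]
  exact sub_eq_zero.1 (norm_eq_zero.1 h0)

theorem near_of_dsum {M : ∀ n, VonNeumannAlgebra (H n)} {m : ℕ} {N : VonNeumannAlgebra (H m)}
    {ε : ℝ} (hε : ε ≤ 1 / 4)
    (h : NearConj ε (dsum ι hι M) (dsum ι hι (Function.update M m N))) :
    NearConj ε (M m) N := by
  obtain ⟨u, hu, himg, hn⟩ := h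
  have hu1 : star u * u = 1 := (Unitary.mem_iff.1 hu).1
  have hu2 : u * star u = 1 := (Unitary.mem_iff.1 hu).2
  have hmap : ∀ x, x ∈ dsum ι hι M → u * x * star u ∈ dsum ι hι (Function.update M m N) := by
    intro x hx
    have : u * x * star u ∈ (dsum ι hι (Function.update M m N) : Set (K →L[ℂ] K)) := by
      rw [← himg]; exact ⟨x, hx, rfl⟩
    exact this
  have hPM : prj ι m ∈ dsum ι hι M := by
    rw [mem_dsum]
    intro n
    rw [prj_eq]
    refine ⟨emb_comm hι n m 1, ?_⟩
    by_cases hnm : n = m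
    · subst hnm
      rw [cmp_emb hι]; exact one_mem _
    · rw [cmp_emb_ne hι hnm]; exact zero_mem _
  have hPP : prj ι m * prj ι m = prj ι m := by
    ext x
    show ι m (adjoint (ι m) (ι m (adjoint (ι m) x))) = ι m (adjoint (ι m) x)
    rw [adj_ι hι]
  have hPn : ‖prj ι m‖ ≤ 1 := by
    rw [prj_eq]
    refine (norm_emb_le hι m 1).trans ?_
    exact norm_id_le
  have hQ := hmap _ hPM
  have hQc := ((mem_dsum hι _ _).1 hQ m).1
  have hcomm : u * prj ι m * star u = prj ι m := by
    refine idem_eq hPP ?_ hQc ?_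
    · calc u * prj ι m * star u * (u * prj ι m * star u)
          = u * prj ι m * (star u * u) * prj ι m * star u := by simp only [mul_assoc]
        _ = u * prj ι m * star u := by rw [hu1, mul_one, mul_assoc u, hPP]
    · have e : u * prj ι m * star u - prj ι m =
          ((u - 1) * prj ι m - prj ι m * (u - 1)) * star u := by
        have : (u - 1) * prj ι m - prj ι m * (u - 1) = u * prj ι m - prj ι m * u := by
          rw [sub_mul, mul_sub, one_mul, mul_one]; abel
        rw [this, sub_mul, mul_assoc (prj ι m) u, hu2, mul_one]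
      have hsu : ‖star u‖ ≤ 1 := by
        rw [norm_star]
        have h1 : ‖star u * u‖ = ‖u‖ * ‖u‖ := CStarRing.norm_star_mul_self
        have h2 : ‖(1 : K →L[ℂ] K)‖ ≤ 1 := norm_id_le
        rw [hu1] at h1
        nlinarith [norm_nonneg u]
      calc ‖u * prj ι m * star u - prj ι m‖
          ≤ ‖(u - 1) * prj ι m - prj ι m * (u - 1)‖ * ‖star u‖ := by rw [e]; exact norm_mul_le _ _
        _ ≤ ‖(u - 1) * prj ι m - prj ι m * (u - 1)‖ * 1 := by gcongr
        _ ≤ ‖(u - 1) * prj ι m‖ + ‖prj ι m * (u - 1)‖ := by rw [mul_one]; exact norm_sub_le _ _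
        _ ≤ ‖u - 1‖ * ‖prj ι m‖ + ‖prj ι m‖ * ‖u - 1‖ :=
          add_le_add (norm_mul_le _ _) (norm_mul_le _ _)
        _ ≤ ‖u - 1‖ * 1 + 1 * ‖u - 1‖ := by gcongr
        _ < 1 := by linarith
  have hup : u * prj ι m = prj ι m * u := by
    calc u * prj ι m = u * prj ι m * (star u * u) := by rw [hu1, mul_one]
      _ = (u * prj ι m * star u) * u := by simp only [mul_assoc]
      _ = prj ι m * u := by rw [hcomm]
  have hsp : star u * prj ι m = prj ι m * star u := by
    have := congrArg star hup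
    rw [star_mul, star_mul, star_prj] at this
    exact this.symm
  set v := cmp ι m u with hv
  have hsv : cmp ι m (star u) = star v := star_cmp m u
  have hv1 : star v * v = 1 := by
    rw [← hsv, hv, ← cmp_mul hι hup, hu1, cmp_one hι]
  have hv2 : v * star v = 1 := by
    rw [← hsv, hv, ← cmp_mul hι hsp, hu2, cmp_one hι]
  refine ⟨v, Unitary.mem_iff.2 ⟨hv1, hv2⟩, ?_, ?_⟩
  · ext S
    constructor
    · rintro ⟨S, hS, rfl⟩
      have hemb : emb ι m S ∈ dsum ι hι M := by
        rw [mem_dsum]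
        intro n
        refine ⟨emb_comm hι n m S, ?_⟩
        by_cases hnm : n = m
        · subst hnm
          rw [cmp_emb hι]; exact hS
        · rw [cmp_emb_ne hι hnm]; exact zero_mem _
      have h1 := ((mem_dsum hι _ _).1 (hmap _ hemb) m).2
      rw [mul_emb hι hup, emb_mul hι hsp, cmp_emb hι, Function.update_self, hsv] at h1
      exact h1
    · intro hS
      have hemb : emb ι m S ∈ dsum ι hι (Function.update M m N) := by
        rw [mem_dsum]
        intro n
        refine ⟨emb_comm hι n m S, ?_⟩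
        by_cases hnm : n = m
        · subst hnm
          rw [cmp_emb hι, Function.update_self]; exact hS
        · rw [cmp_emb_ne hι hnm]; exact zero_mem _
      have h1 : emb ι m S ∈ (dsum ι hι (Function.update M m N) : Set (K →L[ℂ] K)) := hemb
      rw [← himg] at h1
      obtain ⟨T, hT, hTS⟩ := h1
      have h2 : T = emb ι m (star v * S * v) := by
        calc T = (star u * u) * T * (star u * u) := by rw [hu1, one_mul, mul_one]
          _ = star u * (u * T * star u) * u := by simp only [mul_assoc]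
          _ = star u * emb ι m S * u := by
            have : u * T * star u = emb ι m S := hTS
            rw [this]
          _ = emb ι m (star v * S * v) := by
            rw [mul_emb hι hsp, emb_mul hι hup, hsv]
      refine ⟨star v * S * v, ?_, ?_⟩
      · have h3 := ((mem_dsum hι _ _).1 hT m).2
        rw [h2, cmp_emb hι] at h3
        exact h3
      · show v * (star v * S * v) * star v = S
        calc v * (star v * S * v) * star v = (v * star v) * S * (v * star v) := by
              simp only [mul_assoc]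
          _ = S := by rw [hv2, one_mul, mul_one]
  · have : v - 1 = cmp ι m (u - 1) := by rw [cmp_sub, cmp_one hι]
    rw [this]
    exact (norm_cmp_le hι m _).trans_lt hn

end Vale.Agent.P096
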