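import Mathlib

open ContinuousLinearMap

namespace Vale.Agent.P096

variable {K : Type*} [NormedAddCommGroup K] [InnerProductSpace ℂ K] [CompleteSpace K]
variable {H : ℕ → Type*} [∀ n, NormedAddCommGroup (H n)] [∀ n, InnerProductSpace ℂ (H n)]
  [∀ n, CompleteSpace (H n)]

/-- The maps `ι n` are isometric embeddings of the spaces `H n` in `K`
with pairwise orthogonal ranges. -/
structure IsSum (ι : ∀ n, H n →L[ℂ] K) : Prop where
  iso : ∀ n, adjoint (ι n) ∘L ι n = ContinuousLinearMap.id ℂ (H n)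
  orth : ∀ n m, n ≠ m → adjoint (ι n) ∘L ι m = 0

/-- The orthogonal projection on the summand `n`. -/
noncomputable def prj (ι : ∀ n, H n →L[ℂ] K) (n : ℕ) : K →L[ℂ] K := ι n ∘L adjoint (ι n)

/-- The compression to the summand `n`. -/
noncomputable def cmp (ι : ∀ n, H n →L[ℂ] K) (n : ℕ) (T : K →L[ℂ] K) : H n →L[ℂ] H n :=
  adjoint (ι n) ∘L T ∘L ι n

/-- The operator `S` on the summand `n`, zero on the others. -/
noncomputable def emb (ι : ∀ n, H n →L[ℂ] K) (n : ℕ) (S : H n →L[ℂ] H n) : K →L[ℂ] K :=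
  ι n ∘L S ∘L adjoint (ι n)

section

variable {ι : ∀ n, H n →L[ℂ] K} (hι : IsSum ι)

include hι

theorem adj_ι (n : ℕ) (x : H n) : adjoint (ι n) (ι n x) = x := by
  have := congrArg (fun f => f x) (hι.iso n)
  simpa using this

theorem adj_ι_ne {n m : ℕ} (h : n ≠ m) (x : H m) : adjoint (ι n) (ι m x) = 0 := by
  have := congrArg (fun f => f x) (hι.orth n m h)
  simpa using this

theorem norm_ι (n : ℕ) (x : H n) : ‖ι n x‖ = ‖x‖ := by
  have h : (inner ℂ (ι n x) (ι n x) : ℂ) = inner ℂ x x := by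
    rw [← adjoint_inner_left, adj_ι hι]
  rw [@norm_eq_sqrt_re_inner ℂ, @norm_eq_sqrt_re_inner ℂ, h]

theorem norm_adj_le (n : ℕ) (x : K) : ‖adjoint (ι n) x‖ ≤ ‖x‖ := by
  have h1 : ‖ι n‖ ≤ 1 := opNorm_le_bound _ zero_le_one fun x => by rw [norm_ι hι, one_mul]
  have h2 : ‖adjoint (ι n)‖ ≤ 1 := by rw [LinearIsometryEquiv.norm_map]; exact h1
  calc _ ≤ ‖adjoint (ι n)‖ * ‖x‖ := le_opNorm _ _
    _ ≤ 1 * ‖x‖ := by gcongr
    _ = ‖x‖ := one_mul _

theorem cmp_emb (n : ℕ) (S : H n →L[ℂ] H n) : cmp ι n (emb ι n S) = S := by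
  ext x; simp [cmp, emb, adj_ι hι]

theorem cmp_emb_ne {n m : ℕ} (h : n ≠ m) (S : H m →L[ℂ] H m) : cmp ι n (emb ι m S) = 0 := by
  ext x; simp [cmp, emb, adj_ι_ne hι h]

theorem comm_ι {T : K →L[ℂ] K} {n : ℕ} (h : T * prj ι n = prj ι n * T) (x : H n) :
    T (ι n x) = ι n (cmp ι n T x) := by
  have h1 : T (ι n (adjoint (ι n) (ι n x))) = ι n (adjoint (ι n) (T (ι n x))) :=
    congrArg (fun f => f (ι n x)) h
  rw [adj_ι hι] at h1
  exact h1

theorem comm_adj {T : K →L[ℂ] K} {n : ℕ} (h : T * prj ι n = prj ι n * T) (x : K) :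
    adjoint (ι n) (T x) = cmp ι n T (adjoint (ι n) x) := by
  have h1 : adjoint (ι n) (T (ι n (adjoint (ι n) x))) =
      adjoint (ι n) (ι n (adjoint (ι n) (T x))) := congrArg (fun f => adjoint (ι n) (f x)) h
  rw [adj_ι hι] at h1
  exact h1.symm

theorem mul_emb {T : K →L[ℂ] K} {n : ℕ} (h : T * prj ι n = prj ι n * T) (S : H n →L[ℂ] H n) :
    T * emb ι n S = emb ι n (cmp ι n T * S) := by
  ext x
  simp [emb, comm_ι hι h]

theorem emb_mul {T : K →L[ℂ] K} {n : ℕ} (h : T * prj ι n = prj ι n * T) (S : H n →L[ℂ] H n) :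
    emb ι n S * T = emb ι n (S * cmp ι n T) := by
  ext x
  simp [emb, comm_adj hι h]

theorem cmp_mul {T S : K →L[ℂ] K} {n : ℕ} (h : S * prj ι n = prj ι n * S) :
    cmp ι n (T * S) = cmp ι n T * cmp ι n S := by
  ext x
  have h1 : adjoint (ι n) (T (S (ι n x))) =
      adjoint (ι n) (T (ι n (cmp ι n S x))) := by rw [comm_ι hι h x]
  exact h1

theorem cmp_one (n : ℕ) : cmp ι n 1 = 1 := by
  ext x; simp [cmp, adj_ι hι]

theorem emb_comm (n m : ℕ) (S : H m →L[ℂ] H m) : emb ι m S * prj ι n = prj ι n * emb ι m S := by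
  by_cases h : n = m
  · subst h
    ext x; simp [emb, prj, adj_ι hι]
  · ext x; simp [emb, prj, adj_ι_ne hι h, adj_ι_ne hι (Ne.symm h)]

omit hι in
theorem prj_eq (n : ℕ) : prj ι n = emb ι n 1 := by
  ext x; simp [prj, emb]

omit hι in
theorem star_cmp (n : ℕ) (T : K →L[ℂ] K) : cmp ι n (star T) = star (cmp ι n T) := by
  simp only [cmp, star_eq_adjoint, adjoint_comp, adjoint_adjoint]
  rfl

omit hι in
theorem star_prj (n : ℕ) : star (prj ι n) = prj ι n := by
  simp only [prj, star_eq_adjoint, adjoint_comp, adjoint_adjoint]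

omit hι in
theorem cmp_add (n : ℕ) (T S : K →L[ℂ] K) : cmp ι n (T + S) = cmp ι n T + cmp ι n S := by
  ext x; simp [cmp]

omit hι in
theorem cmp_sub (n : ℕ) (T S : K →L[ℂ] K) : cmp ι n (T - S) = cmp ι n T - cmp ι n S := by
  ext x; simp [cmp]

theorem cmp_smul_one (n : ℕ) (r : ℂ) : cmp ι n (algebraMap ℂ (K →L[ℂ] K) r) =
    algebraMap ℂ (H n →L[ℂ] H n) r := by
  ext x; simp [cmp, Algebra.algebraMap_eq_smul_one, adj_ι hι]

theorem norm_cmp_le (n : ℕ) (T : K →L[ℂ] K) : ‖cmp ι n T‖ ≤ ‖T‖ := by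
  refine opNorm_le_bound _ (norm_nonneg _) fun x => ?_
  calc ‖cmp ι n T x‖ = ‖adjoint (ι n) (T (ι n x))‖ := rfl
    _ ≤ ‖T (ι n x)‖ := norm_adj_le hι n _
    _ ≤ ‖T‖ * ‖ι n x‖ := le_opNorm _ _
    _ = ‖T‖ * ‖x‖ := by rw [norm_ι hι]

theorem norm_emb_le (n : ℕ) (S : H n →L[ℂ] H n) : ‖emb ι n S‖ ≤ ‖S‖ := by
  refine opNorm_le_bound _ (norm_nonneg _) fun x => ?_
  calc ‖emb ι n S x‖ = ‖ι n (S (adjoint (ι n) x))‖ := rfl
    _ = ‖S (adjoint (ι n) x)‖ := norm_ι hι n _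
    _ ≤ ‖S‖ * ‖adjoint (ι n) x‖ := le_opNorm _ _
    _ ≤ ‖S‖ * ‖x‖ := by
      gcongr
      exact norm_adj_le hι n x

end

/-- The operators that commute with all the projections `prj ι n` and have compressions in the
algebras `M n`. -/
def sumSet (ι : ∀ n, H n →L[ℂ] K) (M : ∀ n, VonNeumannAlgebra (H n)) : Set (K →L[ℂ] K) :=
  {T | ∀ n, T * prj ι n = prj ι n * T ∧ cmp ι n T ∈ M n}

section

variable {ι : ∀ n, H n →L[ℂ] K} (hι : IsSum ι) (M : ∀ n, VonNeumannAlgebra (H n))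

include hι

theorem sum_mul {T S : K →L[ℂ] K} (hT : T ∈ sumSet ι M) (hS : S ∈ sumSet ι M) :
    T * S ∈ sumSet ι M := by
  intro n
  refine ⟨?_, ?_⟩
  · rw [mul_assoc, (hS n).1, ← mul_assoc, (hT n).1, mul_assoc]
  · rw [cmp_mul hι (hS n).1]
    exact mul_mem (hT n).2 (hS n).2

theorem sum_one : (1 : K →L[ℂ] K) ∈ sumSet ι M := by
  intro n
  refine ⟨by simp, ?_⟩
  rw [cmp_one hι]
  exact one_mem _

omit hι in
theorem sum_add {T S : K →L[ℂ] K} (hT : T ∈ sumSet ι M) (hS : S ∈ sumSet ι M) :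
    T + S ∈ sumSet ι M := by
  intro n
  refine ⟨?_, ?_⟩
  · rw [add_mul, mul_add, (hS n).1, (hT n).1]
  · rw [cmp_add]
    exact add_mem (hT n).2 (hS n).2

omit hι in
theorem sum_zero : (0 : K →L[ℂ] K) ∈ sumSet ι M := by
  intro n
  refine ⟨by simp, ?_⟩
  have : cmp ι n (0 : K →L[ℂ] K) = 0 := by ext x; simp [cmp]
  rw [this]
  exact zero_mem _

theorem sum_algebraMap (r : ℂ) : algebraMap ℂ (K →L[ℂ] K) r ∈ sumSet ι M := by
  intro n
  refine ⟨(Algebra.commutes r _), ?_⟩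
  rw [cmp_smul_one hι]
  exact (M n).algebraMap_mem' r

omit hι in
theorem sum_star {T : K →L[ℂ] K} (hT : T ∈ sumSet ι M) : star T ∈ sumSet ι M := by
  intro n
  refine ⟨?_, ?_⟩
  · have := congrArg star (hT n).1
    rw [star_mul, star_mul, star_prj] at this
    exact this.symm
  · rw [star_cmp]
    exact star_mem (hT n).2

theorem sum_cc : Set.centralizer (Set.centralizer (sumSet ι M)) = sumSet ι M := by
  refine Set.Subset.antisymm ?_ Set.subset_centralizer_centralizer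
  intro T hT n
  have h1 : prj ι n * T = T * prj ι n := by
    refine Set.mem_centralizer_iff.1 hT _ ?_
    rw [Set.mem_centralizer_iff]
    intro g hg
    exact (hg n).1
  refine ⟨h1.symm, ?_⟩
  have h2 : cmp ι n T ∈ Set.centralizer (Set.centralizer (M n : Set (H n →L[ℂ] H n))) := by
    rw [Set.mem_centralizer_iff]
    intro S hS
    rw [Set.mem_centralizer_iff] at hS
    have h3 : emb ι n S * T = T * emb ι n S := by
      refine Set.mem_centralizer_iff.1 hT _ ?_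
      rw [Set.mem_centralizer_iff]
      intro g hg
      rw [mul_emb hι (hg n).1, emb_mul hι (hg n).1, hS _ (hg n).2]
    rw [mul_emb hι h1.symm, emb_mul hι h1.symm] at h3
    have h4 := congrArg (cmp ι n) h3
    rwa [cmp_emb hι, cmp_emb hι] at h4
  rw [VonNeumannAlgebra.centralizer_centralizer] at h2
  exact h2

end

/-- The star subalgebra with carrier `sumSet ι M`. -/
noncomputable def sumAlg (ι : ∀ n, H n →L[ℂ] K) (hι : IsSum ι) (M : ∀ n, VonNeumannAlgebra (H n)) :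
    StarSubalgebra ℂ (K →L[ℂ] K) where
  carrier := sumSet ι M
  mul_mem' := sum_mul hι M
  one_mem' := sum_one hι M
  add_mem' := sum_add M
  zero_mem' := sum_zero M
  algebraMap_mem' := sum_algebraMap hι M
  star_mem' := sum_star M

/-- The direct sum of the von Neumann algebras `M n`, acting on `K`: the operators that commute
with all the projections `prj ι n` and have compressions in the algebras `M n`. -/
noncomputable def dsum (ι : ∀ n, H n →L[ℂ] K) (hι : IsSum ι) (M : ∀ n, VonNeumannAlgebra (H n)) :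
    VonNeumannAlgebra K where
  toStarSubalgebra := sumAlg ι hι M
  centralizer_centralizer' := sum_cc hι M

theorem mem_dsum {ι : ∀ n, H n →L[ℂ] K} (hι : IsSum ι) (M : ∀ n, VonNeumannAlgebra (H n))
    (T : K →L[ℂ] K) : T ∈ dsum ι hι M ↔ ∀ n, T * prj ι n = prj ι n * T ∧ cmp ι n T ∈ M n :=
  Iff.rfl

end Vale.Agent.P096
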